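import Vale.Agent.P088.H599.J.Defs
import Vale.Agent.P088.H72.Norm

/-!
# P088, joint local uniqueness (all `N`): smoothness and smallness of the reduced data (row U_SM)
-/

open MeasureTheory Set
open scoped ContDiff Matrix

noncomputable section

namespace Vale.Agent.P088.H159

open Vale.Agent.P088.LR Vale.Agent.P088.LR.CF Vale.Agent.P088.LR.U Vale.Agent.P088.LR.H158

variable {n N : ℕ}

/-! ### calculus of `Cl` -/

/-- A continuous linear map of norm `≤ 1` keeps `Cl`. -/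
theorem cl_clm {E F : Type*} [NormedAddCommGroup E] [NormedSpace ℝ E] [NormedAddCommGroup F]
    [NormedSpace ℝ F] {k : ℕ} {a : ℝ} {f : V n → E} (hf : ContDiff ℝ ∞ f) (h : Cl k a f)
    (L : E →L[ℝ] F) (hL : ‖L‖ ≤ 1) : Cl k a (fun x => L (f x)) := by
  intro l hl x
  have h1 : (fun x => L (f x)) = L ∘ f := rfl
  rw [h1]
  refine (ContinuousLinearMap.norm_iteratedFDeriv_comp_left L hf.contDiffAt
    (by exact_mod_cast le_top)).trans ?_
  calc ‖L‖ * ‖iteratedFDeriv ℝ l f x‖ ≤ 1 * ‖iteratedFDeriv ℝ l f x‖ :=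
        mul_le_mul_of_nonneg_right hL (norm_nonneg _)
    _ ≤ a := by rw [one_mul]; exact h l hl x

theorem cl_pdF {F : Type*} [NormedAddCommGroup F] [NormedSpace ℝ F] {k : ℕ} {δ : ℝ} {f : V n → F}
    (hf : ContDiff ℝ ∞ f) (h : Cl (k + 1) δ f) (i : Fin n) : Cl k δ (pd i f) := by
  intro l hl x
  let L : (V n →L[ℝ] F) →L[ℝ] F := ContinuousLinearMap.apply ℝ F (Pi.single i (1 : ℝ))
  have hL : ‖L‖ ≤ 1 := by
    refine ContinuousLinearMap.opNorm_le_bound _ zero_le_one fun T => ?_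
    have h1 : L T = T (Pi.single i 1) := rfl
    rw [h1, one_mul]
    refine (T.le_opNorm _).trans ?_
    rw [Pi.norm_single, norm_one, mul_one]
  have h2 : pd i f = L ∘ fderiv ℝ f := rfl
  rw [h2]
  have hfd : ContDiff ℝ ∞ (fderiv ℝ f) := hf.fderiv_right (by simp)
  refine (ContinuousLinearMap.norm_iteratedFDeriv_comp_left L hfd.contDiffAt
    (by exact_mod_cast le_top)).trans ?_
  rw [norm_iteratedFDeriv_fderiv]
  calc ‖L‖ * ‖iteratedFDeriv ℝ (l + 1) f x‖ ≤ 1 * ‖iteratedFDeriv ℝ (l + 1) f x‖ :=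
        mul_le_mul_of_nonneg_right hL (norm_nonneg _)
    _ ≤ δ := by rw [one_mul]; exact h (l + 1) (by omega) x

theorem cl_addF {F : Type*} [NormedAddCommGroup F] [NormedSpace ℝ F] {k : ℕ} {a b : ℝ}
    {f g : V n → F} (hf : ContDiff ℝ ∞ f) (hg : ContDiff ℝ ∞ g) (h1 : Cl k a f) (h2 : Cl k b g) :
    Cl k (a + b) (fun x => f x + g x) := by
  intro l hl x
  have h3 : iteratedFDeriv ℝ l (fun x => f x + g x) x =
      iteratedFDeriv ℝ l f x + iteratedFDeriv ℝ l g x := by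
    have := iteratedFDeriv_add_apply (𝕜 := ℝ) (i := l) (x := x)
      ((hf.of_le (by exact_mod_cast le_top)).contDiffAt)
      ((hg.of_le (by exact_mod_cast le_top)).contDiffAt)
    exact this
  rw [h3]
  exact (norm_add_le _ _).trans (add_le_add (h1 l hl x) (h2 l hl x))

theorem cl_down {k m : ℕ} {a : ℝ} {F : Type*} [NormedAddCommGroup F] [NormedSpace ℝ F]
    {f : V n → F} (h : Cl m a f) (hkm : k ≤ m) : Cl k a f := fun l hl x => h l (hl.trans hkm) x

theorem sm_re {E : Type*} [NormedAddCommGroup E] [NormedSpace ℝ E] {f : E → ℂ}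
    (hf : ContDiff ℝ ∞ f) : ContDiff ℝ ∞ fun x => (f x).re := Complex.reCLM.contDiff.comp hf

theorem sm_im {E : Type*} [NormedAddCommGroup E] [NormedSpace ℝ E] {f : E → ℂ}
    (hf : ContDiff ℝ ∞ f) : ContDiff ℝ ∞ fun x => (f x).im := Complex.imCLM.contDiff.comp hf

theorem sm_of {E : Type*} [NormedAddCommGroup E] [NormedSpace ℝ E] {f : E → ℝ}
    (hf : ContDiff ℝ ∞ f) : ContDiff ℝ ∞ fun x => (f x : ℂ) := Complex.ofRealCLM.contDiff.comp hf

theorem cl_reF {k : ℕ} {a : ℝ} {f : V n → ℂ} (hf : ContDiff ℝ ∞ f) (h : Cl k a f) :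
    Cl k a (fun x => (f x).re) :=
  cl_clm hf h Complex.reCLM (by rw [Complex.reCLM_norm])

theorem cl_imF {k : ℕ} {a : ℝ} {f : V n → ℂ} (hf : ContDiff ℝ ∞ f) (h : Cl k a f) :
    Cl k a (fun x => (f x).im) :=
  cl_clm hf h Complex.imCLM (by rw [Complex.imCLM_norm])

theorem cl_ofF {k : ℕ} {a : ℝ} {f : V n → ℝ} (hf : ContDiff ℝ ∞ f) (h : Cl k a f) :
    Cl k a (fun x => (f x : ℂ)) :=
  cl_clm hf h Complex.ofRealCLM (by rw [Complex.ofRealCLM_norm])

/-- multiplication by `I`, as a real linear map -/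
def mI : ℂ →L[ℝ] ℂ := Complex.I • (ContinuousLinearMap.id ℝ ℂ)

theorem cl_parts {k : ℕ} {a : ℝ} {f : V n → ℂ} (hf : ContDiff ℝ ∞ f)
    (h1 : Cl k a (fun x => (f x).re)) (h2 : Cl k a (fun x => (f x).im)) : Cl k (a + a) f := by
  have h3 : f = fun x => (((f x).re : ℝ) : ℂ) + mI (((f x).im : ℝ) : ℂ) := by
    funext x
    simp only [mI, smul_apply, ContinuousLinearMap.id_apply, smul_eq_mul]
    rw [mul_comm, Complex.re_add_im]
  have h4 : ‖mI‖ ≤ 1 := by
    refine ContinuousLinearMap.opNorm_le_bound _ zero_le_one fun z => ?_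
    simp [mI]
  have h5 := cl_clm (sm_of (sm_im hf)) (cl_ofF (sm_im hf) h2) mI h4
  have h6 := cl_addF (sm_of (sm_re hf)) (mI.contDiff.comp (sm_of (sm_im hf)))
    (cl_ofF (sm_re hf) h1) h5
  rw [h3]
  exact h6

/-- Composition with a smooth function of complex variables. -/
theorem small_c {ι : Type*} [Fintype ι] (p0 : ι → ℂ) (Ψ : (ι → ℂ) → ℂ) (hΨ : ContDiff ℝ ∞ Ψ)
    (hz : Ψ p0 = 0) (k : ℕ) (ε : ℝ) (hε : 0 < ε) : ∃ δ > 0, ∀ f : V n → ι → ℂ,
      (∀ a, ContDiff ℝ ∞ fun x => f x a) → (∀ a, Cl k δ (fun x => f x a - p0 a)) →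
      Cl k ε (fun x => Ψ (f x)) := by
  let q0 : ι × Bool → ℝ := fun a => if a.2 then (p0 a.1).re else (p0 a.1).im
  let dec : (ι × Bool → ℝ) → ι → ℂ := fun p a =>
    ((p (a, true) : ℝ) : ℂ) + ((p (a, false) : ℝ) : ℂ) * Complex.I
  have hdec : ContDiff ℝ ∞ dec := by
    refine contDiff_pi.2 fun a => ?_
    exact (sm_of (contDiff_apply ℝ ℝ (a, true))).add
      ((sm_of (contDiff_apply ℝ ℝ (a, false))).mul contDiff_const)
  have hq0 : dec q0 = p0 := by
    funext a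
    simp only [dec, q0, if_true]
    simp [Complex.re_add_im]
  have hc : ContDiff ℝ ∞ fun p => Ψ (dec p) := hΨ.comp hdec
  obtain ⟨d1, hd1, h1⟩ := Vale.Agent.P088.LR.H72.small_comp (n := n) univ isOpen_univ q0
    (mem_univ _) (fun p => (Ψ (dec p)).re) (sm_re hc).contDiffOn (by simp [hq0, hz]) k (ε / 2)
    (half_pos hε)
  obtain ⟨d2, hd2, h2⟩ := Vale.Agent.P088.LR.H72.small_comp (n := n) univ isOpen_univ q0
    (mem_univ _) (fun p => (Ψ (dec p)).im) (sm_im hc).contDiffOn (by simp [hq0, hz]) k (ε / 2)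
    (half_pos hε)
  refine ⟨min d1 d2, lt_min hd1 hd2, fun f hf hcl => ?_⟩
  let g : V n → ι × Bool → ℝ := fun x a => if a.2 then (f x a.1).re else (f x a.1).im
  have hg : ContDiff ℝ ∞ g := by
    refine contDiff_pi.2 fun a => ?_
    rcases a with ⟨a, b | b⟩
    · exact sm_im (hf a)
    · exact sm_re (hf a)
  have hgd : ∀ x, dec (g x) = f x := by
    intro x
    funext a
    simp only [dec, g, if_true]
    simp [Complex.re_add_im]
  have hgc : ∀ a, Cl k (min d1 d2) (fun x => g x a - q0 a) := by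
    intro a
    have h3 := hcl a.1
    have h4 : ContDiff ℝ ∞ fun x => f x a.1 - p0 a.1 := (hf a.1).sub contDiff_const
    rcases a with ⟨a, b | b⟩
    · have h5 := cl_imF h4 h3
      simpa [g, q0] using h5
    · have h5 := cl_reF h4 h3
      simpa [g, q0] using h5
  have h3 := (h1 g hg fun a => Vale.Agent.P088.LR.H72.cl_mono (hgc a) (min_le_left _ _)).2
  have h4 := (h2 g hg fun a => Vale.Agent.P088.LR.H72.cl_mono (hgc a) (min_le_right _ _)).2
  simp only [hgd] at h3 h4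
  have h5 := cl_parts (hΨ.comp (contDiff_pi.2 hf)) h3 h4
  rw [add_halves] at h5
  exact h5

/-! ### smooth matrix functions on any space -/

/-- entrywise smooth -/
def SmE {E : Type*} [NormedAddCommGroup E] [NormedSpace ℝ E] (P : E → Matrix (Fin N) (Fin N) ℂ) :
    Prop := ∀ a b, ContDiff ℝ ∞ fun x => P x a b

section

variable {E : Type*} [NormedAddCommGroup E] [NormedSpace ℝ E] {P Q : E → Matrix (Fin N) (Fin N) ℂ}

theorem SmE.mul (hP : SmE P) (hQ : SmE Q) : SmE fun x => P x * Q x := by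
  intro a b
  simp only [Matrix.mul_apply]
  exact ContDiff.sum fun k _ => (hP a k).mul (hQ k b)

theorem SmE.star (hP : SmE P) : SmE fun x => (P x)ᴴ := by
  intro a b
  simp only [Matrix.conjTranspose_apply]
  exact (Complex.conjCLE : ℂ →L[ℝ] ℂ).contDiff.comp (hP b a)

theorem SmE.add (hP : SmE P) (hQ : SmE Q) : SmE fun x => P x + Q x := by
  intro a b
  simp only [Matrix.add_apply]
  exact (hP a b).add (hQ a b)

theorem SmE.sub (hP : SmE P) (hQ : SmE Q) : SmE fun x => P x - Q x := by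
  intro a b
  simp only [Matrix.sub_apply]
  exact (hP a b).sub (hQ a b)

theorem SmE.smul {c : E → ℂ} (hc : ContDiff ℝ ∞ c) (hP : SmE P) : SmE fun x => c x • P x := by
  intro a b
  simp only [Matrix.smul_apply, smul_eq_mul]
  exact hc.mul (hP a b)

theorem SmE.sum {ι : Type*} {t : Finset ι} {R : ι → E → Matrix (Fin N) (Fin N) ℂ}
    (hR : ∀ i ∈ t, SmE (R i)) : SmE fun x => ∑ i ∈ t, R i x := by
  intro a b
  simp only [Matrix.sum_apply]
  exact ContDiff.sum fun i hi => hR i hi a b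

theorem SmE.const (C : Matrix (Fin N) (Fin N) ℂ) : SmE fun _ : E => C := by
  intro a b
  exact contDiff_const

end

/-! ### the variables -/

/-- The variables. -/
abbrev Va (n N : ℕ) :=
  (Fin n × Fin n) ⊕ ((Fin n × Fin N × Fin N) ⊕ (Option (Fin n) × Fin N × Fin N))

/-- The matrix `F`. -/
def Fm (p : Va n N → ℂ) : Matrix (Fin N) (Fin N) ℂ :=
  Matrix.of fun a b => p (Sum.inr (Sum.inr (none, a, b)))

/-- The matrix `∂_j F`. -/
def Dm (j : Fin n) (p : Va n N → ℂ) : Matrix (Fin N) (Fin N) ℂ :=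
  Matrix.of fun a b => p (Sum.inr (Sum.inr (some j, a, b)))

/-- The matrix `A_j`. -/
def Am (j : Fin n) (p : Va n N → ℂ) : Matrix (Fin N) (Fin N) ℂ :=
  Matrix.of fun a b => p (Sum.inr (Sum.inl (j, a, b)))

theorem Fm_sm : SmE (Fm : (Va n N → ℂ) → Matrix (Fin N) (Fin N) ℂ) := fun _ _ =>
  contDiff_apply ℝ ℂ _

theorem Dm_sm (j : Fin n) : SmE (Dm j : (Va n N → ℂ) → Matrix (Fin N) (Fin N) ℂ) := fun _ _ =>
  contDiff_apply ℝ ℂ _

theorem Am_sm (j : Fin n) : SmE (Am j : (Va n N → ℂ) → Matrix (Fin N) (Fin N) ℂ) := fun _ _ =>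
  contDiff_apply ℝ ℂ _

/-- `F* F`. -/
def Pp (p : Va n N → ℂ) : Matrix (Fin N) (Fin N) ℂ := (Fm p)ᴴ * Fm p

/-- `s_ij F* F`. -/
def Tp (i j : Fin n) (p : Va n N → ℂ) : Matrix (Fin N) (Fin N) ℂ := p (Sum.inl (i, j)) • Pp p

/-- `D_j F`. -/
def Cp (j : Fin n) (p : Va n N → ℂ) : Matrix (Fin N) (Fin N) ℂ := Dm j p + Am j p * Fm p

/-- `κ_i`. -/
def Qp (i : Fin n) (p : Va n N → ℂ) : Matrix (Fin N) (Fin N) ℂ :=
  ∑ j, p (Sum.inl (i, j)) • ((Fm p)ᴴ * Cp j p - (Cp j p)ᴴ * Fm p)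

theorem Pp_sm : SmE (Pp : (Va n N → ℂ) → Matrix (Fin N) (Fin N) ℂ) := Fm_sm.star.mul Fm_sm

theorem Tp_sm (i j : Fin n) : SmE (Tp i j : (Va n N → ℂ) → Matrix (Fin N) (Fin N) ℂ) :=
  SmE.smul (contDiff_apply ℝ ℂ _) Pp_sm

theorem Cp_sm (j : Fin n) : SmE (Cp j : (Va n N → ℂ) → Matrix (Fin N) (Fin N) ℂ) :=
  (Dm_sm j).add ((Am_sm j).mul Fm_sm)

theorem Qp_sm (i : Fin n) : SmE (Qp i : (Va n N → ℂ) → Matrix (Fin N) (Fin N) ℂ) :=
  SmE.sum fun j _ => SmE.smul (contDiff_apply ℝ ℂ _)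
    ((Fm_sm.star.mul (Cp_sm j)).sub ((Cp_sm j).star.mul Fm_sm))

/-- The values of the variables. -/
def fv (s : MF n) (A : Cn n N) (F : MC n N) (x : V n) : Va n N → ℂ :=
  Sum.elim (fun a => ((s x a.1 a.2 : ℝ) : ℂ)) (Sum.elim (fun a => A a.1 x a.2.1 a.2.2)
    (fun b => match b with
      | (none, a, c) => F x a c
      | (some i, a, c) => pd i (fun y => F y a c) x))

/-- The base point. -/
def pv (n N : ℕ) : Va n N → ℂ :=
  Sum.elim (fun a => (((1 : Matrix (Fin n) (Fin n) ℝ) a.1 a.2 : ℝ) : ℂ))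
    (Sum.elim (fun _ => 0) (fun b => match b with
      | (none, a, c) => (1 : Matrix (Fin N) (Fin N) ℂ) a c
      | (some _, _, _) => 0))

theorem Fm_pv : Fm (pv n N) = 1 := rfl

theorem Dm_pv (j : Fin n) : Dm j (pv n N) = 0 := rfl

theorem Am_pv (j : Fin n) : Am j (pv n N) = 0 := rfl

theorem Pp_pv : Pp (pv n N) = 1 := by
  rw [Pp, Fm_pv, Matrix.conjTranspose_one, one_mul]

theorem Cp_pv (j : Fin n) : Cp j (pv n N) = 0 := by
  rw [Cp, Dm_pv, Am_pv, zero_mul, add_zero]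

theorem Tp_pv (i j : Fin n) : Tp i j (pv n N) = if i = j then 1 else 0 := by
  rw [Tp, Pp_pv]
  simp only [pv, Sum.elim_inl, Matrix.one_apply]
  split_ifs <;> simp

theorem Qp_pv (i : Fin n) : Qp i (pv n N) = 0 := by
  simp [Qp, Cp_pv]

theorem Pp_fv (s : MF n) (A : Cn n N) (F : MC n N) (x : V n) : Pp (fv s A F x) = PF F x := rfl

theorem Tp_fv (s : MF n) (A : Cn n N) (F : MC n N) (i j : Fin n) (x : V n) :
    Tp i j (fv s A F x) = TF s F i j x := rfl

theorem Qp_fv (s : MF n) (A : Cn n N) (F : MC n N) (i : Fin n) (x : V n) :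
    Qp i (fv s A F x) = qF s A F i x := rfl

theorem fv_sm {s : MF n} {A : Cn n N} {F : MC n N} (hs : SmM s) (hA : SmU A) (hF : SmC F)
    (a : Va n N) : ContDiff ℝ ∞ fun x => fv s A F x a := by
  rcases a with a | a | ⟨a | a, b, c⟩
  · exact sm_of (hs a.1 a.2)
  · exact hA.1 a.1 a.2.1 a.2.2
  · exact hF b c
  · exact contDiff_pd (hF b c) a

theorem pd_subc {F : Type*} [NormedAddCommGroup F] [NormedSpace ℝ F] (f : V n → F) (c : F)
    (i : Fin n) : pd i (fun x => f x - c) = pd i f := by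
  funext x
  unfold pd
  rw [fderiv_sub_const]

theorem fv_cl {k : ℕ} {δ : ℝ} {s : MF n} {A : Cn n N} {F : MC n N} (hs : SmM s) (hF : SmC F)
    (h1 : ∀ i j, Cl k δ (fun x => s x i j - (1 : Matrix (Fin n) (Fin n) ℝ) i j))
    (h2 : ∀ i, ClC k δ (A i)) (h3 : ClC (k + 1) δ (fun x => F x - 1)) (a : Va n N) :
    Cl k δ (fun x => fv s A F x a - pv n N a) := by
  rcases a with a | a | ⟨a | a, b, c⟩
  · have h4 := cl_ofF ((hs a.1 a.2).sub contDiff_const) (h1 a.1 a.2)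
    simpa [fv, pv] using h4
  · simpa [fv, pv] using h2 a.1 a.2.1 a.2.2
  · exact cl_down (h3 b c) (Nat.le_succ k)
  · have h4 := cl_pdF ((hF b c).sub (contDiff_const (c := (1 : Matrix (Fin N) (Fin N) ℂ) b c)))
      (h3 b c) a
    rw [pd_subc] at h4
    simpa [fv, pv] using h4

theorem PF_sm {s : MF n} {A : Cn n N} {F : MC n N} (hs : SmM s) (hA : SmU A) (hF : SmC F) :
    SmC (PF F) := by
  intro a b
  have h : ContDiff ℝ ∞ fun x => Pp (fv s A F x) a b :=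
    (Pp_sm a b).comp (contDiff_pi.2 (fv_sm hs hA hF))
  simp only [Pp_fv] at h
  exact h

theorem TF_sm {s : MF n} {A : Cn n N} {F : MC n N} (hs : SmM s) (hA : SmU A) (hF : SmC F)
    (i j : Fin n) : SmC (TF s F i j) := by
  intro a b
  have h : ContDiff ℝ ∞ fun x => Tp i j (fv s A F x) a b :=
    (Tp_sm i j a b).comp (contDiff_pi.2 (fv_sm hs hA hF))
  simp only [Tp_fv] at h
  exact h

theorem qF_sm {s : MF n} {A : Cn n N} {F : MC n N} (hs : SmM s) (hA : SmU A) (hF : SmC F)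
    (i : Fin n) : SmC (qF s A F i) := by
  intro a b
  have h : ContDiff ℝ ∞ fun x => Qp i (fv s A F x) a b :=
    (Qp_sm i a b).comp (contDiff_pi.2 (fv_sm hs hA hF))
  simp only [Qp_fv] at h
  exact h

/-- smallness of `F* F - 1` -/
theorem PF_cl (n N k : ℕ) (ε : ℝ) (hε : 0 < ε) : ∃ δ > 0, ∀ (s : MF n) (A : Cn n N)
    (F : MC n N), SmM s → SmU A → SmC F → (∀ a, Cl k δ (fun x => fv s A F x a - pv n N a)) →
    ClC k ε (fun x => PF F x - 1) := by
  have ha := fun a : Fin N × Fin N => small_c (n := n) (pv n N)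
    (fun p => Pp p a.1 a.2 - (1 : Matrix (Fin N) (Fin N) ℂ) a.1 a.2)
    ((Pp_sm a.1 a.2).sub contDiff_const) (by rw [Pp_pv, sub_self]) k ε hε
  choose d1 hd1 h1 using ha
  obtain ⟨δ1, hδ1, hl1⟩ := Vale.Agent.P088.LR.H72.exists_pos_le d1 hd1
  refine ⟨δ1, hδ1, fun s A F hs hA hF hc a b => ?_⟩
  have h := h1 (a, b) (fv s A F) (fv_sm hs hA hF) fun c =>
    Vale.Agent.P088.LR.H72.cl_mono (hc c) (hl1 (a, b))
  simp only [Pp_fv] at h
  exact h

theorem qF_cl (n N k : ℕ) (ε : ℝ) (hε : 0 < ε) : ∃ δ > 0, ∀ (s : MF n) (A : Cn n N)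
    (F : MC n N), SmM s → SmU A → SmC F → (∀ a, Cl k δ (fun x => fv s A F x a - pv n N a)) →
    ∀ i, ClC k ε (qF s A F i) := by
  have ha := fun a : Fin n × Fin N × Fin N => small_c (n := n) (pv n N)
    (fun p => Qp a.1 p a.2.1 a.2.2) (Qp_sm a.1 a.2.1 a.2.2) (by rw [Qp_pv]; rfl) k ε hε
  choose d1 hd1 h1 using ha
  obtain ⟨δ1, hδ1, hl1⟩ := Vale.Agent.P088.LR.H72.exists_pos_le d1 hd1
  refine ⟨δ1, hδ1, fun s A F hs hA hF hc i a b => ?_⟩
  have h := h1 (i, a, b) (fv s A F) (fv_sm hs hA hF) fun c =>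
    Vale.Agent.P088.LR.H72.cl_mono (hc c) (hl1 (i, a, b))
  simp only [Qp_fv] at h
  exact h

theorem TF_cl (n N k : ℕ) (ε : ℝ) (hε : 0 < ε) : ∃ δ > 0, ∀ (s : MF n) (A : Cn n N)
    (F : MC n N), SmM s → SmU A → SmC F → (∀ a, Cl k δ (fun x => fv s A F x a - pv n N a)) →
    ∀ i j, ClC k ε (fun x => TF s F i j x - if i = j then 1 else 0) := by
  have ha := fun a : (Fin n × Fin n) × Fin N × Fin N => small_c (n := n) (pv n N)
    (fun p => Tp a.1.1 a.1.2 p a.2.1 a.2.2 -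
      (if a.1.1 = a.1.2 then (1 : Matrix (Fin N) (Fin N) ℂ) else 0) a.2.1 a.2.2)
    ((Tp_sm a.1.1 a.1.2 a.2.1 a.2.2).sub contDiff_const) (by rw [Tp_pv, sub_self]) k ε hε
  choose d1 hd1 h1 using ha
  obtain ⟨δ1, hδ1, hl1⟩ := Vale.Agent.P088.LR.H72.exists_pos_le d1 hd1
  refine ⟨δ1, hδ1, fun s A F hs hA hF hc i j a b => ?_⟩
  have h := h1 ((i, j), a, b) (fv s A F) (fv_sm hs hA hF) fun c =>
    Vale.Agent.P088.LR.H72.cl_mono (hc c) (hl1 ((i, j), a, b))
  simp only [Tp_fv] at h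
  exact h

/-- **Row U_SM.** -/
theorem smu : RowSMU := by
  intro n N k ε hε
  obtain ⟨δ1, hδ1, h1⟩ := PF_cl n N k ε hε
  obtain ⟨δ2, hδ2, h2⟩ := qF_cl n N k ε hε
  obtain ⟨δ3, hδ3, h3⟩ := TF_cl n N k ε hε
  refine ⟨min δ1 (min δ2 δ3), by positivity, fun s A F hs hA hF c1 c2 c3 => ?_⟩
  have hfc := fun a => fv_cl hs hF c1 c2 c3 a
  exact ⟨PF_sm hs hA hF, TF_sm hs hA hF, qF_sm hs hA hF,
    h1 s A F hs hA hF fun a => Vale.Agent.P088.LR.H72.cl_mono (hfc a) (min_le_left _ _),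
    h2 s A F hs hA hF fun a => Vale.Agent.P088.LR.H72.cl_mono (hfc a)
      ((min_le_right _ _).trans (min_le_left _ _)),
    h3 s A F hs hA hF fun a => Vale.Agent.P088.LR.H72.cl_mono (hfc a)
      ((min_le_right _ _).trans (min_le_right _ _))⟩

end Vale.Agent.P088.H159
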